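import Mathlib

/-!
# P085: auxiliary lemmas in a unital C-star algebra
-/

namespace Vale.Agent.Lib.P085

variable {A : Type*} [CStarAlgebra A]

/-- spectral gap separation -/
theorem commute_of_gap {Q u v T : A} {μ : ℝ} (hQ : Q * Q = Q)
    (hu : Q * u = u) (hu' : u * Q = u) (hv : Q * v = 0) (hv' : v * Q = 0)
    (hμ : ‖u‖ + ‖v‖ < μ) (hT : Commute T (u + v + (μ : ℂ) • (1 - Q))) : Commute T Q := by
  set w := u + v + (μ : ℂ) • (1 - Q) with hw
  have hμ0 : 0 < μ := lt_of_le_of_lt (add_nonneg (norm_nonneg _) (norm_nonneg _)) hμ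
  have hw1 : w * (1 - Q) = v + (μ : ℂ) • (1 - Q) := by
    simp only [hw, add_mul, mul_sub, mul_one, hu', hv', smul_mul_assoc, sub_mul, one_mul, hQ]
    simp
    abel
  have hw2 : Q * w = u := by
    simp only [hw, mul_add, hu, hv, mul_smul_comm, mul_sub, mul_one, hQ]
    simp
  have hw3 : w * Q = u := by
    simp only [hw, add_mul, hu', hv', smul_mul_assoc, sub_mul, one_mul, hQ]
    simp
  have hw4 : (1 - Q) * w = v + (μ : ℂ) • (1 - Q) := by
    simp only [hw, mul_add, sub_mul, one_mul, hu, hv, mul_smul_comm, mul_sub, mul_one, hQ]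
    simp
  have hzero : ∀ X : A, (μ : ℂ) • X = u * X - X * v → X = 0 := by
    intro X hX
    by_contra hne
    have hpos : 0 < ‖X‖ := norm_pos_iff.mpr hne
    have h1 : μ * ‖X‖ = ‖u * X - X * v‖ := by
      rw [← hX, norm_smul, Complex.norm_real, Real.norm_of_nonneg hμ0.le]
    have h2 : ‖u * X - X * v‖ ≤ (‖u‖ + ‖v‖) * ‖X‖ := by
      calc ‖u * X - X * v‖ ≤ ‖u * X‖ + ‖X * v‖ := norm_sub_le _ _
        _ ≤ ‖u‖ * ‖X‖ + ‖X‖ * ‖v‖ := add_le_add (norm_mul_le _ _) (norm_mul_le _ _)
        _ = (‖u‖ + ‖v‖) * ‖X‖ := by ring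
    nlinarith
  have hzero' : ∀ X : A, (μ : ℂ) • X = X * u - v * X → X = 0 := by
    intro X hX
    by_contra hne
    have hpos : 0 < ‖X‖ := norm_pos_iff.mpr hne
    have h1 : μ * ‖X‖ = ‖X * u - v * X‖ := by
      rw [← hX, norm_smul, Complex.norm_real, Real.norm_of_nonneg hμ0.le]
    have h2 : ‖X * u - v * X‖ ≤ (‖u‖ + ‖v‖) * ‖X‖ := by
      calc ‖X * u - v * X‖ ≤ ‖X * u‖ + ‖v * X‖ := norm_sub_le _ _
        _ ≤ ‖X‖ * ‖u‖ + ‖v‖ * ‖X‖ := add_le_add (norm_mul_le _ _) (norm_mul_le _ _)
        _ = (‖u‖ + ‖v‖) * ‖X‖ := by ring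
    nlinarith
  have hv1 : (1 - Q) * v = v := by rw [sub_mul, one_mul, hv, sub_zero]
  have hv2 : v * (1 - Q) = v := by rw [mul_sub, mul_one, hv', sub_zero]
  have hX : Q * T * (1 - Q) = 0 := by
    apply hzero
    have e1 : Q * (T * w) * (1 - Q) = Q * T * (1 - Q) * v + (μ : ℂ) • (Q * T * (1 - Q)) := by
      calc Q * (T * w) * (1 - Q) = Q * T * (w * (1 - Q)) := by simp only [mul_assoc]
        _ = Q * T * (v + (μ : ℂ) • (1 - Q)) := by rw [hw1]
        _ = Q * T * ((1 - Q) * v) + (μ : ℂ) • (Q * T * (1 - Q)) := by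
            rw [mul_add, mul_smul_comm, hv1]
        _ = _ := by simp only [mul_assoc]
    have e2 : Q * (w * T) * (1 - Q) = u * (Q * T * (1 - Q)) := by
      calc Q * (w * T) * (1 - Q) = (Q * w) * T * (1 - Q) := by simp only [mul_assoc]
        _ = (u * Q) * T * (1 - Q) := by rw [hw2, hu']
        _ = _ := by simp only [mul_assoc]
    rw [hT.eq, e2] at e1
    rw [e1]; abel
  have hY : (1 - Q) * T * Q = 0 := by
    apply hzero'
    have e1 : (1 - Q) * (T * w) * Q = (1 - Q) * T * Q * u := by
      calc (1 - Q) * (T * w) * Q = (1 - Q) * T * (w * Q) := by simp only [mul_assoc]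
        _ = (1 - Q) * T * (Q * u) := by rw [hw3, hu]
        _ = _ := by simp only [mul_assoc]
    have e2 : (1 - Q) * (w * T) * Q = v * ((1 - Q) * T * Q) + (μ : ℂ) • ((1 - Q) * T * Q) := by
      calc (1 - Q) * (w * T) * Q = ((1 - Q) * w) * T * Q := by simp only [mul_assoc]
        _ = (v * (1 - Q) + (μ : ℂ) • (1 - Q)) * T * Q := by rw [hw4, hv2]
        _ = _ := by simp only [add_mul, smul_mul_assoc, mul_assoc]
    rw [hT.eq, e2] at e1
    rw [← e1]; abel
  have h1 : Q * T = Q * T * Q := by
    have : Q * T * (1 - Q) = Q * T - Q * T * Q := by rw [mul_sub, mul_one]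
    rw [hX] at this
    exact (sub_eq_zero.mp this.symm)
  have h2 : T * Q = Q * T * Q := by
    have : (1 - Q) * T * Q = T * Q - Q * T * Q := by rw [sub_mul, sub_mul, one_mul]
    rw [hY] at this
    exact (sub_eq_zero.mp this.symm)
  exact h2.trans h1.symm

/-- `E` is the right annihilating projection of `x`. -/
structure IsRAnn (x E : A) : Prop where
  proj : IsStarProjection E
  mul_eq : x * E = 0
  univ : ∀ y, x * y = 0 → E * y = y

theorem IsRAnn.commute {x E T : A} (h : IsRAnn x E) (h1 : Commute T x) (h2 : Commute (star T) x) :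
    Commute T E := by
  have hE : star E = E := h.proj.isSelfAdjoint.star_eq
  have e1 : E * (T * E) = T * E := by
    apply h.univ
    rw [← mul_assoc, ← h1.eq, mul_assoc, h.mul_eq, mul_zero]
  have e2 : E * (star T * E) = star T * E := by
    apply h.univ
    rw [← mul_assoc, ← h2.eq, mul_assoc, h.mul_eq, mul_zero]
  have e3 : E * T * E = E * T := by
    have := congrArg star e2
    simpa [star_mul, hE, mul_assoc] using this
  show T * E = E * T
  rw [← e1, ← e3, mul_assoc]

theorem IsRAnn.mul_right_eq {x E y : A} (h : IsRAnn x E) (hy : y * star x = 0) : y * E = y := by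
  have hE : star E = E := h.proj.isSelfAdjoint.star_eq
  have h1 : x * star y = 0 := by
    have := congrArg star hy
    simpa [star_mul] using this
  have h2 := h.univ _ h1
  have := congrArg star h2
  simpa [star_mul, hE] using this

variable [PartialOrder A] [StarOrderedRing A]

theorem commute_of_commute_sq {m T : A} (hm : 0 ≤ m) (h : Commute (m * m) T) : Commute m T := by
  have h1 : CFC.sqrt (m * m) = m := CFC.sqrt_mul_self m hm
  rw [← h1]
  unfold CFC.sqrt
  exact h.cfcₙ_nnreal _

/-- Lyapunov type lemma -/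
theorem lyapunov {α D : A} (h : α * star α * D + D * (star α * α) = 0) : D * star α = 0 := by
  set m := α * star α with hm
  set Y := D * star α with hY
  have hm0 : 0 ≤ m := mul_star_self_nonneg α
  have h1 : m * Y = -(Y * m) := by
    have : m * Y + Y * m = (α * star α * D + D * (star α * α)) * star α := by
      simp only [hm, hY, add_mul, mul_assoc]
    rw [h, zero_mul] at this
    exact eq_neg_of_add_eq_zero_left this
  have h2 : Commute (m * m) Y := by
    show m * m * Y = Y * (m * m)
    rw [mul_assoc, h1, mul_neg, ← mul_assoc, h1, neg_mul, neg_neg, mul_assoc]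
  have h3 : Commute m Y := commute_of_commute_sq hm0 h2
  have h4 : Y * m = 0 := by
    have : Y * m = -(Y * m) := by rw [← h1]; exact h3.eq.symm
    have h5 : (2 : ℂ) • (Y * m) = 0 := by
      rw [two_smul]
      nth_rewrite 1 [this]
      exact neg_add_cancel _
    exact (smul_eq_zero.mp h5).resolve_left two_ne_zero
  have h5 : D * (star α * α) = 0 := by
    rw [← CStarRing.mul_star_self_eq_zero_iff]
    have : D * (star α * α) * star (D * (star α * α)) = Y * m * (α * star D) := by
      simp only [hm, hY, star_mul, star_star, mul_assoc]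
    rw [this, h4, zero_mul]
  rw [← CStarRing.mul_star_self_eq_zero_iff]
  have : Y * star Y = D * (star α * α) * star D := by
    simp only [hY, star_mul, star_star, mul_assoc]
  rw [this, h5, zero_mul]

end Vale.Agent.Lib.P085
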