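import Vale.Agent.Lib.P085.Enc

/-!
# P085: two projections and a self-adjoint element
-/

namespace Vale.Agent.Lib.P085

open CFC

variable {A : Type*} [CStarAlgebra A] [PartialOrder A] [StarOrderedRing A]

theorem eq_of_add_self_eq {x y : A} (h : x + x = y + y) : x = y := by
  have h2 : (2 : ℂ) • x = (2 : ℂ) • y := by rw [two_smul, two_smul, h]
  exact smul_right_injective A (two_ne_zero : (2 : ℂ) ≠ 0) h2

theorem commute_abs_of_commute_sq {C T : A} (hC : IsSelfAdjoint C) (h : Commute T (C * C)) :
    Commute T (CFC.abs C) := by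
  have h1 : Commute (star C * C) T := by rw [hC.star_eq]; exact h.symm
  have : Commute (CFC.sqrt (star C * C)) T := by
    unfold CFC.sqrt
    exact h1.cfcₙ_nnreal _
  exact this.symm

/-- Abstract form: in a unital C-star algebra in which every element has a right annihilating
projection, the commutant of two projections and a self-adjoint element is the commutant of two
self-adjoint elements. -/
theorem two_proj_sa (hB : ∀ x : A, ∃ E, IsRAnn x E) {p q c : A} (hp : IsStarProjection p)
    (hq : IsStarProjection q) (hc : IsSelfAdjoint c) :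
    ∃ a b : A, IsSelfAdjoint a ∧ IsSelfAdjoint b ∧ ∀ T : A, (Commute T a ∧ Commute T b) ↔
      (Commute T p ∧ Commute T q ∧ Commute T c) := by
  have sp : star p = p := hp.isSelfAdjoint.star_eq
  have sq : star q = q := hq.isSelfAdjoint.star_eq
  have sc : star c = c := hc.star_eq
  have pp : p * p = p := hp.isIdempotentElem.eq
  have qq : q * q = q := hq.isIdempotentElem.eq
  set C : A := p + q - 1 with hC
  set S : A := p - q with hS
  have sC : IsSelfAdjoint C := by show star C = C; simp [hC, sp, sq]
  have sS : IsSelfAdjoint S := by show star S = S; simp [hS, sp, sq]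
  have anti : S * C = -(C * S) := by
    simp only [hC, hS, mul_add, add_mul, mul_sub, sub_mul, mul_one, one_mul, pp, qq]; abel
  have sqsum : C * C = 1 - S * S := by
    simp only [hC, hS, mul_add, add_mul, mul_sub, sub_mul, mul_one, one_mul, pp, qq]; abel
  set Cp : A := C⁺ with hCp
  set Cm : A := C⁻ with hCm
  have hCsub : Cp - Cm = C := CFC.posPart_sub_negPart C sC
  have hCadd : Cp + Cm = CFC.abs C := CFC.posPart_add_negPart C sC
  have CpCm : Cp * Cm = 0 := posPart_mul_negPart C
  have CmCp : Cm * Cp = 0 := negPart_mul_posPart C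
  have sCp : star Cp = Cp := (CFC.posPart_nonneg C).isSelfAdjoint.star_eq
  have sCm : star Cm = Cm := (CFC.negPart_nonneg C).isSelfAdjoint.star_eq
  obtain ⟨P, hP⟩ := hB Cm
  have sP : star P = P := hP.proj.isSelfAdjoint.star_eq
  have PP : P * P = P := hP.proj.isIdempotentElem.eq
  have CmP : Cm * P = 0 := hP.mul_eq
  have PCm : P * Cm = 0 := by simpa [star_mul, sP, sCm] using congrArg star CmP
  have PCp : P * Cp = Cp := hP.univ Cp CmCp
  have CpP : Cp * P = Cp := by simpa [star_mul, sP, sCp] using congrArg star PCp
  have P1P : P * (1 - P) = 0 := by rw [mul_sub, mul_one, PP, sub_self]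
  have oneP_P : (1 - P) * P = 0 := by rw [sub_mul, one_mul, PP, sub_self]
  have hCabs : C = (P + P - 1) * CFC.abs C := by
    rw [← hCadd, ← hCsub]
    simp only [mul_add, add_mul, sub_mul, one_mul, PCp, PCm]; abel
  have hPC : Commute P C := by
    show P * C = C * P
    rw [← hCsub]
    simp only [mul_sub, sub_mul, PCp, PCm, CpP, CmP]
  have hSabs : Commute S (CFC.abs C) := by
    apply commute_abs_of_commute_sq sC
    show S * (C * C) = C * C * S
    rw [← mul_assoc, anti, neg_mul, mul_assoc, anti, mul_neg, neg_neg, mul_assoc]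
  have SCp : S * Cp = Cm * S := by
    apply eq_of_add_self_eq
    have h1 : S * (Cp + Cm) = (Cp + Cm) * S := by rw [hCadd]; exact hSabs.eq
    have h2 : S * (Cp - Cm) = -((Cp - Cm) * S) := by rw [hCsub]; exact anti
    have h3 : S * Cp + S * Cp = S * (Cp + Cm) + S * (Cp - Cm) := by
      simp only [mul_add, mul_sub]; abel
    rw [h3, h1, h2]
    simp only [add_mul, sub_mul]; abel
  have hPS1 : P * (S * (1 - P)) = S * (1 - P) := by
    apply hP.univ
    rw [← mul_assoc, ← SCp, mul_assoc, mul_sub, mul_one, CpP, sub_self, mul_zero]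
  have hcorner : (1 - P) * S * (1 - P) = 0 := by
    rw [mul_assoc, sub_mul, one_mul, hPS1, sub_self]
  set α : A := P * S * (1 - P) with hα
  set S₀ : A := P * S * P with hS₀
  have sα : star α = (1 - P) * S * P := by
    simp [hα, star_mul, sP, sS.star_eq, mul_assoc]
  have Ssplit : S = S₀ + α + star α := by
    have : S = P * S * P + P * S * (1 - P) + (1 - P) * S * P + (1 - P) * S * (1 - P) := by
      noncomm_ring
    rw [hcorner, add_zero] at this
    rw [sα]; exact this
  have hPSS : Commute P (S * S) := by
    have : S * S = 1 - C * C := by rw [sqsum]; abel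
    rw [this]
    exact (Commute.one_right P).sub_right (hPC.mul_right hPC)
  have hS₀α : S₀ * α = 0 := by
    have h1 : P * (S * S) * (1 - P) = 0 := by
      rw [hPSS.eq, mul_assoc, P1P, mul_zero]
    have h2 : P * (S * S) * (1 - P) = S₀ * α + P * S * ((1 - P) * S * (1 - P)) := by
      have : S₀ * α = P * S * (P * P) * S * (1 - P) := by simp only [hS₀, hα, mul_assoc]
      rw [this, PP]
      noncomm_ring
    rw [hcorner, mul_zero, add_zero] at h2
    rw [← h2, h1]
  obtain ⟨E, hE⟩ := hB α
  obtain ⟨E', hE'⟩ := hB (star α)
  obtain ⟨a, b, sa, sb, hab⟩ := enc (P := P) (k := P * c * P) (k' := (1 - P) * c * (1 - P))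
    (α := α) (β := P * c * (1 - P)) (S₀ := S₀) (E := E) (E' := E') hP.proj
    (by show star _ = _; simp [star_mul, sP, sc, mul_assoc])
    (by show star _ = _; simp [star_mul, sP, sc, mul_assoc])
    (by simp only [← mul_assoc, PP])
    (by simp only [← mul_assoc, P1P, zero_mul])
    (by simp only [hα, ← mul_assoc, PP])
    (by simp only [hα, mul_assoc, oneP_P, mul_zero])
    (by simp only [← mul_assoc, PP])
    (by simp only [mul_assoc, oneP_P, mul_zero])
    (by show star _ = _; simp [hS₀, star_mul, sP, sS.star_eq, mul_assoc])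
    (by simp only [hS₀, ← mul_assoc, PP])
    hS₀α hE hE'
  refine ⟨a, b, sa, sb, fun T => ?_⟩
  rw [hab T]
  constructor
  · rintro ⟨hTP, hTk, hTk', hTα, hTαs, hTβ, hTβs, hTS₀⟩
    have hTS : Commute T S := by
      rw [Ssplit]; exact (hTS₀.add_right hTα).add_right hTαs
    have hTc : Commute T c := by
      have h1 : star (P * c * (1 - P)) = (1 - P) * c * P := by
        simp [star_mul, sP, sc, mul_assoc]
      have : c = P * c * P + (1 - P) * c * (1 - P) + P * c * (1 - P) + star (P * c * (1 - P)) := by
        rw [h1]; noncomm_ring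
      rw [this]
      exact ((hTk.add_right hTk').add_right hTβ).add_right hTβs
    have hTCC : Commute T (C * C) := by
      rw [sqsum]; exact (Commute.one_right T).sub_right (hTS.mul_right hTS)
    have hTabs : Commute T (CFC.abs C) := commute_abs_of_commute_sq sC hTCC
    have hTC : Commute T C := by
      rw [hCabs]
      exact (((hTP.add_right hTP).sub_right (Commute.one_right T))).mul_right hTabs
    have hp2 : p = (1 / 2 : ℂ) • (1 + C + S) := by
      have : 1 + C + S = (2 : ℂ) • p := by rw [hC, hS, two_smul]; abel
      rw [this, smul_smul]; norm_num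
    have hq2 : q = (1 / 2 : ℂ) • (1 + C - S) := by
      have : 1 + C - S = (2 : ℂ) • q := by rw [hC, hS, two_smul]; abel
      rw [this, smul_smul]; norm_num
    refine ⟨?_, ?_, hTc⟩
    · rw [hp2]; exact (((Commute.one_right T).add_right hTC).add_right hTS).smul_right _
    · rw [hq2]; exact (((Commute.one_right T).add_right hTC).sub_right hTS).smul_right _
  · rintro ⟨hTp, hTq, hTc⟩
    have hmain : ∀ T : A, Commute T p → Commute T q → Commute T Cm := by
      intro T hTp hTq
      have hTC : Commute T C := (hTp.add_right hTq).sub_right (Commute.one_right T)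
      have : Commute (cfcₙ (fun x : ℝ => x⁻) C) T := hTC.symm.cfcₙ_real _
      rw [hCm, CFC.negPart_def]
      exact this.symm
    have hTsp : Commute (star T) p := by have := hTp.star_star; rwa [sp] at this
    have hTsq : Commute (star T) q := by have := hTq.star_star; rwa [sq] at this
    have hTP : Commute T P := hP.commute (hmain T hTp hTq) (hmain _ hTsp hTsq)
    have hTP' : Commute T (1 - P) := (Commute.one_right T).sub_right hTP
    have hTS : Commute T S := hTp.sub_right hTq
    refine ⟨hTP, (hTP.mul_right hTc).mul_right hTP, (hTP'.mul_right hTc).mul_right hTP',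
      (hTP.mul_right hTS).mul_right hTP', ?_, (hTP.mul_right hTc).mul_right hTP', ?_,
      (hTP.mul_right hTS).mul_right hTP⟩
    · rw [sα]; exact (hTP'.mul_right hTS).mul_right hTP
    · have h1 : star (P * c * (1 - P)) = (1 - P) * c * P := by
        simp [star_mul, sP, sc, mul_assoc]
      rw [h1]; exact (hTP'.mul_right hTc).mul_right hTP

end Vale.Agent.Lib.P085
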