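import Vale.Agent.Lib.P085.Defs
import Vale.Agent.Lib.P085.TwoProj

namespace Vale.Agent.Lib.P085

variable {H : Type*} [NormedAddCommGroup H] [InnerProductSpace ℂ H] [CompleteSpace H]

/-- every bounded operator has a right annihilating projection: the projection onto its kernel -/
theorem exists_isRAnn (x : H →L[ℂ] H) : ∃ E : H →L[ℂ] H, IsRAnn x E := by
  let K : Submodule ℂ H := LinearMap.ker (x : H →ₗ[ℂ] H)
  have hcl : IsClosed (K : Set H) := x.isClosed_ker
  have : CompleteSpace K := hcl.completeSpace_coe
  refine ⟨K.starProjection, isStarProjection_starProjection, ?_, ?_⟩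
  · ext v
    have : K.starProjection v ∈ K := Submodule.starProjection_apply_mem K v
    exact LinearMap.mem_ker.mp this
  · intro y hy
    ext v
    have h1 : x (y v) = 0 := by
      have := congrArg (fun L : H →L[ℂ] H => L v) hy
      simpa using this
    have h2 : y v ∈ K := LinearMap.mem_ker.mpr h1
    exact Submodule.starProjection_eq_self_iff.mpr h2

/-- the commutant of `S ∪ S^*` as a von Neumann algebra -/
noncomputable def commutantOf (S : Set (H →L[ℂ] H)) : VonNeumannAlgebra H where
  toStarSubalgebra := StarSubalgebra.centralizer ℂ S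
  centralizer_centralizer' := by
    show Set.centralizer (Set.centralizer (Set.centralizer (S ∪ star S))) = _
    exact Set.centralizer_centralizer_centralizer _

theorem coe_commutantOf (S : Set (H →L[ℂ] H)) :
    (commutantOf S : Set (H →L[ℂ] H)) = Set.centralizer (S ∪ star S) := rfl

/-- the double commutant -/
noncomputable def wStar (S : Set (H →L[ℂ] H)) : VonNeumannAlgebra H := (commutantOf S).commutant

theorem coe_wStar (S : Set (H →L[ℂ] H)) :
    (wStar S : Set (H →L[ℂ] H)) = Set.centralizer (Set.centralizer (S ∪ star S)) := by
  rw [wStar, VonNeumannAlgebra.coe_commutant, coe_commutantOf]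

theorem isGeneratedBy_wStar (S : Set (H →L[ℂ] H)) : IsGeneratedBy (wStar S) S := by
  constructor
  · rw [coe_wStar]
    exact Set.subset_union_left.trans Set.subset_centralizer_centralizer
  · intro N hN
    have h1 : S ∪ star S ⊆ (N : Set (H →L[ℂ] H)) := by
      apply Set.union_subset hN
      intro y hy
      have : star y ∈ S := hy
      have h2 : star y ∈ N := hN this
      have h3 := star_mem h2
      simpa using h3
    have h2 : Set.centralizer (Set.centralizer (S ∪ star S))
        ⊆ Set.centralizer (Set.centralizer (N : Set (H →L[ℂ] H))) :=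
      Set.centralizer_subset (Set.centralizer_subset h1)
    rw [VonNeumannAlgebra.centralizer_centralizer] at h2
    intro y hy
    apply h2
    have : y ∈ (wStar S : Set (H →L[ℂ] H)) := hy
    rwa [coe_wStar] at this

theorem IsGeneratedBy.eq_wStar {M : VonNeumannAlgebra H} {S : Set (H →L[ℂ] H)}
    (h : IsGeneratedBy M S) : M = wStar S :=
  le_antisymm (h.2 _ (isGeneratedBy_wStar S).1) ((isGeneratedBy_wStar S).2 _ h.1)

theorem IsGeneratedBy.of_centralizer_eq {M : VonNeumannAlgebra H} {S S' : Set (H →L[ℂ] H)}
    (h : IsGeneratedBy M S)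
    (hc : Set.centralizer (S ∪ star S) = Set.centralizer (S' ∪ star S')) : IsGeneratedBy M S' := by
  have h1 : wStar S = wStar S' := by
    apply SetLike.coe_injective
    rw [coe_wStar, coe_wStar, hc]
  rw [h.eq_wStar, h1]
  exact isGeneratedBy_wStar S'

/-- from two self-adjoint generators to one generator -/
theorem centralizer_single {a b : H →L[ℂ] H} (ha : IsSelfAdjoint a) (hb : IsSelfAdjoint b)
    (T : H →L[ℂ] H) :
    T ∈ Set.centralizer (({a + Complex.I • b} : Set (H →L[ℂ] H)) ∪ star {a + Complex.I • b}) ↔
      (Commute T a ∧ Commute T b) := by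
  have hs : star (a + Complex.I • b) = a - Complex.I • b := by
    simp [ha.star_eq, hb.star_eq, sub_eq_add_neg]
  rw [Set.mem_centralizer_iff]
  constructor
  · intro h
    have h1 : Commute T (a + Complex.I • b) := (h _ (Or.inl rfl)).symm
    have h2 : Commute T (a - Complex.I • b) := by
      have : a - Complex.I • b ∈ star ({a + Complex.I • b} : Set (H →L[ℂ] H)) := by
        rw [Set.mem_star, Set.mem_singleton_iff, ← hs, star_star]
      exact (h _ (Or.inr this)).symm
    have ea : a = (1 / 2 : ℂ) • ((a + Complex.I • b) + (a - Complex.I • b)) := by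
      have : (a + Complex.I • b) + (a - Complex.I • b) = (2 : ℂ) • a := by rw [two_smul]; abel
      rw [this, smul_smul]; norm_num
    have eb : b = (-Complex.I / 2 : ℂ) • ((a + Complex.I • b) - (a - Complex.I • b)) := by
      have : (a + Complex.I • b) - (a - Complex.I • b) = (2 * Complex.I : ℂ) • b := by
        rw [mul_smul, two_smul]; abel
      rw [this, smul_smul]
      have : (-Complex.I / 2 * (2 * Complex.I) : ℂ) = 1 := by
        have := Complex.I_mul_I
        linear_combination (-1 : ℂ) * this
      rw [this, one_smul]
    constructor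
    · rw [ea]; exact (h1.add_right h2).smul_right _
    · rw [eb]; exact (h1.sub_right h2).smul_right _
  · rintro ⟨h1, h2⟩ m hm
    rcases hm with hm | hm
    · rw [Set.mem_singleton_iff] at hm
      rw [hm]; exact (h1.add_right (h2.smul_right _)).symm.eq
    · rw [Set.mem_star, Set.mem_singleton_iff] at hm
      have : m = a - Complex.I • b := by rw [← hs, ← hm, star_star]
      rw [this]; exact (h1.sub_right (h2.smul_right _)).symm.eq

theorem centralizer_triple {p q c : H →L[ℂ] H} (hp : IsSelfAdjoint p) (hq : IsSelfAdjoint q)
    (hc : IsSelfAdjoint c) (T : H →L[ℂ] H) :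
    T ∈ Set.centralizer (({p, q, c} : Set (H →L[ℂ] H)) ∪ star {p, q, c}) ↔
      (Commute T p ∧ Commute T q ∧ Commute T c) := by
  rw [Set.mem_centralizer_iff]
  constructor
  · intro h
    exact ⟨(h p (Or.inl (by simp))).symm, (h q (Or.inl (by simp))).symm,
      (h c (Or.inl (by simp))).symm⟩
  · rintro ⟨h1, h2, h3⟩ m hm
    have key : ∀ m ∈ ({p, q, c} : Set (H →L[ℂ] H)), m * T = T * m := by
      intro m hm
      simp only [Set.mem_insert_iff, Set.mem_singleton_iff] at hm
      rcases hm with rfl | rfl | rfl
      · exact h1.symm.eq
      · exact h2.symm.eq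
      · exact h3.symm.eq
    rcases hm with hm | hm
    · exact key m hm
    · rw [Set.mem_star] at hm
      have hm' : star m = m := by
        simp only [Set.mem_insert_iff, Set.mem_singleton_iff] at hm
        rcases hm with h | h | h
        · have := congrArg star h; rw [star_star, hp.star_eq] at this; rw [this, hp.star_eq]
        · have := congrArg star h; rw [star_star, hq.star_eq] at this; rw [this, hq.star_eq]
        · have := congrArg star h; rw [star_star, hc.star_eq] at this; rw [this, hc.star_eq]
      rw [hm'] at hm
      exact key m hm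

/-- **Main theorem.** A von Neumann algebra generated by two projections and one self-adjoint
operator is singly generated. -/
theorem singly_generated_of_two_proj_sa (M : VonNeumannAlgebra H) {p q c : H →L[ℂ] H}
    (hp : IsStarProjection p) (hq : IsStarProjection q) (hc : IsSelfAdjoint c)
    (hM : IsGeneratedBy M {p, q, c}) : IsSinglyGenerated M := by
  obtain ⟨a, b, sa, sb, hab⟩ := two_proj_sa exists_isRAnn hp hq hc
  refine ⟨a + Complex.I • b, hM.of_centralizer_eq ?_⟩
  ext T
  rw [centralizer_triple hp.isSelfAdjoint hq.isSelfAdjoint hc, centralizer_single sa sb, hab T]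

end Vale.Agent.Lib.P085
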