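import Mathlib

/-!
# P085: generation of von Neumann algebras
-/

namespace Vale.Agent.Lib.P085

variable {H : Type*} [NormedAddCommGroup H] [InnerProductSpace ℂ H] [CompleteSpace H]

/-- `M = W*(S)`: `M` is the smallest von Neumann algebra on `H` containing the set `S`. -/
def IsGeneratedBy (M : VonNeumannAlgebra H) (S : Set (H →L[ℂ] H)) : Prop :=
  S ⊆ (M : Set (H →L[ℂ] H)) ∧ ∀ N : VonNeumannAlgebra H, S ⊆ (N : Set (H →L[ℂ] H)) → M ≤ N

/-- `M` is singly generated: `M = W*(x)` for some operator `x`. -/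
def IsSinglyGenerated (M : VonNeumannAlgebra H) : Prop :=
  ∃ x : H →L[ℂ] H, IsGeneratedBy M {x}

end Vale.Agent.Lib.P085
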