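import Vale.Agent.Lib.P085.Basic

/-!
# P085: the encoding lemma
-/

namespace Vale.Agent.Lib.P085

variable {A : Type*} [CStarAlgebra A] [PartialOrder A] [StarOrderedRing A]

theorem commute_star_of {T x : A} (h : Commute (star T) x) : Commute T (star x) := by
  have := h.star_star
  simpa using this

/-- The encoding lemma: block data `(P; k, k'; α, β; S₀)` is equivalent, at the level of commutants,
to two self-adjoint elements. -/
theorem enc {P k k' α β S₀ E E' : A} (hP : IsStarProjection P)
    (hk : IsSelfAdjoint k) (hk' : IsSelfAdjoint k')
    (hPk : P * k = k) (hPk' : P * k' = 0) (hPα : P * α = α) (hαP : α * P = 0)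
    (hPβ : P * β = β) (hβP : β * P = 0)
    (hS : IsSelfAdjoint S₀) (hPS : P * S₀ = S₀) (hSα : S₀ * α = 0)
    (hE : IsRAnn α E) (hE' : IsRAnn (star α) E') :
    ∃ a b : A, IsSelfAdjoint a ∧ IsSelfAdjoint b ∧ ∀ T : A, (Commute T a ∧ Commute T b) ↔
      (Commute T P ∧ Commute T k ∧ Commute T k' ∧ Commute T α ∧ Commute T (star α) ∧
        Commute T β ∧ Commute T (star β) ∧ Commute T S₀) := by
  -- basic relations
  have sP : star P = P := hP.isSelfAdjoint.star_eq
  have PP : P * P = P := hP.isIdempotentElem.eq
  have sk : star k = k := hk.star_eq
  have sk' : star k' = k' := hk'.star_eq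
  have sS : star S₀ = S₀ := hS.star_eq
  have sE : star E = E := hE.proj.isSelfAdjoint.star_eq
  have EE : E * E = E := hE.proj.isIdempotentElem.eq
  have sE' : star E' = E' := hE'.proj.isSelfAdjoint.star_eq
  have hkP : k * P = k := by simpa [star_mul, sP, sk] using congrArg star hPk
  have hk'P : k' * P = 0 := by simpa [star_mul, sP, sk'] using congrArg star hPk'
  have hSP : S₀ * P = S₀ := by simpa [star_mul, sP, sS] using congrArg star hPS
  have hαsP : star α * P = star α := by simpa [star_mul, sP] using congrArg star hPα
  have hPαs : P * star α = 0 := by simpa [star_mul, sP] using congrArg star hαP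
  have hβsP : star β * P = star β := by simpa [star_mul, sP] using congrArg star hPβ
  have hPβs : P * star β = 0 := by simpa [star_mul, sP] using congrArg star hβP
  have hαsS : star α * S₀ = 0 := by simpa [star_mul, sS] using congrArg star hSα
  have αE : α * E = 0 := hE.mul_eq
  have Eαs : E * star α = 0 := by simpa [star_mul, sE] using congrArg star αE
  have EP : E * P = P := hE.univ P hαP
  have PE : P * E = P := by simpa [star_mul, sE, sP] using congrArg star EP
  have αsE' : star α * E' = 0 := hE'.mul_eq
  have E'α : E' * α = 0 := by simpa [star_mul, sE'] using congrArg star αsE'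
  have E'S : E' * S₀ = S₀ := hE'.univ S₀ hαsS
  have SE' : S₀ * E' = S₀ := by simpa [star_mul, sE', sS] using congrArg star E'S
  -- the pieces
  set e : A := E - P with he
  set β₀ : A := β * (1 - E) with hβ₀
  set z : A := α + β * E with hz
  set Y₁ : A := β₀ * star α with hY₁
  set Y₂ : A := star α * β₀ with hY₂
  set Aop : A := Y₁ + star Y₁ with hAop
  set Bop : A := Complex.I • (Y₂ - star Y₂) with hBop
  set μ : ℝ := ‖k‖ + ‖k'‖ + 1 with hμ
  set ν : ℝ := ‖Bop‖ + ‖(0 : A)‖ + 1 with hν
  set a : A := k + k' + (μ : ℂ) • (1 - P) with ha
  set b : A := Aop + S₀ + z + star z + Bop + (ν : ℂ) • e with hb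
  have se : star e = e := by simp [he, sE, sP]
  have ee : e * e = e := by
    simp only [he, mul_sub, sub_mul, EE, EP, PE, PP]; abel
  have Pe : P * e = 0 := by simp only [he, mul_sub, PE, PP, sub_self]
  have eP : e * P = 0 := by simp only [he, sub_mul, EP, PP, sub_self]
  have αe : α * e = 0 := by simp only [he, mul_sub, αE, hαP, sub_self]
  have eαs : e * star α = 0 := by simp only [he, sub_mul, Eαs, hPαs, sub_self]
  have Ee : E * e = e := by simp only [he, mul_sub, EE, EP]
  have eE : e * E = e := by simp only [he, sub_mul, EE, PE]
  have βEe : β * E = β * e := by simp only [he, mul_sub, hβP, sub_zero]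
  have Pβ₀ : P * β₀ = β₀ := by simp only [hβ₀, ← mul_assoc, hPβ]
  have β₀P : β₀ * P = 0 := by
    simp only [hβ₀, mul_assoc, sub_mul, one_mul, EP, sub_self, mul_zero]
  have β₀E : β₀ * E = 0 := by
    simp only [hβ₀, mul_assoc, sub_mul, one_mul, EE, sub_self, mul_zero]
  have β₀e : β₀ * e = 0 := by simp only [he, mul_sub, β₀E, β₀P, sub_self]
  have sβ₀P : star β₀ * P = star β₀ := by simpa [star_mul, sP] using congrArg star Pβ₀
  have Psβ₀ : P * star β₀ = 0 := by simpa [star_mul, sP] using congrArg star β₀P
  have Esβ₀ : E * star β₀ = 0 := by simpa [star_mul, sE] using congrArg star β₀E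
  have esβ₀ : e * star β₀ = 0 := by simpa [star_mul, se] using congrArg star β₀e
  have βsplit : β = β₀ + β * E := by simp only [hβ₀, mul_sub, mul_one]; abel
  have sY₁ : star Y₁ = α * star β₀ := by simp [hY₁, star_mul]
  have sY₂ : star Y₂ = star β₀ * α := by simp [hY₂, star_mul]
  have sAop : star Aop = Aop := by simp [hAop, add_comm]
  have sBop : star Bop = Bop := by
    simp only [hBop, star_smul, star_sub, star_star, Complex.star_def, Complex.conj_I, neg_smul,
      ← smul_neg, neg_sub]
  have hAop' : Aop = β₀ * star α + α * star β₀ := by rw [hAop, sY₁]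
  have hBop' : Bop = Complex.I • (star α * β₀ - star β₀ * α) := by rw [hBop, sY₂]
  have hYY : Y₂ - star Y₂ = star α * β₀ - star β₀ * α := by rw [sY₂]
  -- supports
  have PA : P * Aop = Aop := by
    simp only [hAop', mul_add, ← mul_assoc, Pβ₀, hPα]
  have AP : Aop * P = Aop := by simpa [star_mul, sP, sAop] using congrArg star PA
  have PB : P * Bop = 0 := by
    simp only [hBop', mul_smul_comm, mul_sub, ← mul_assoc, hPαs, Psβ₀, zero_mul, sub_self,
      smul_zero]
  have BP : Bop * P = 0 := by simpa [star_mul, sP, sBop] using congrArg star PB
  have eB : e * Bop = 0 := by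
    simp only [hBop', mul_smul_comm, mul_sub, ← mul_assoc, eαs, esβ₀, zero_mul, sub_self,
      smul_zero]
  have Be : Bop * e = 0 := by simpa [star_mul, se, sBop] using congrArg star eB
  have Pz : P * z = z := by simp only [hz, mul_add, ← mul_assoc, hPα, hPβ]
  have zP : z * P = 0 := by simp only [hz, add_mul, mul_assoc, hαP, EP, hβP, add_zero]
  have szP : star z * P = star z := by simpa [star_mul, sP] using congrArg star Pz
  have Psz : P * star z = 0 := by simpa [star_mul, sP] using congrArg star zP
  have sa : IsSelfAdjoint a := by
    show star a = a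
    simp [ha, sk, sk', sP]
  have sb : IsSelfAdjoint b := by
    show star b = b
    simp only [hb, star_add, sAop, sS, star_star, sBop, star_smul, se, Complex.star_def,
      Complex.conj_ofReal]
    abel
  -- block identities
  have I1 : P * b * P = Aop + S₀ := by
    simp only [hb, mul_add, add_mul, PA, AP, hPS, hSP, Pz, zP, Psz, zero_mul, PB, mul_smul_comm, Pe,
      smul_zero, add_zero]
  have I2 : P * b * (1 - P) = z := by
    simp only [hb, mul_add, add_mul, PA, hPS, Pz, Psz, PB, mul_smul_comm, Pe, smul_zero, add_zero,
      mul_sub, mul_one, AP, hSP, zP, sub_self, sub_zero, zero_add]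
    abel
  have I3 : (1 - P) * b * (1 - P) = Bop + (ν : ℂ) • e := by
    simp only [hb, mul_add, add_mul, sub_mul, mul_sub, one_mul, mul_one, PA, AP, hPS, hSP, Pz, zP,
      Psz, szP, PB, BP, mul_smul_comm, smul_mul_assoc, Pe, eP, smul_zero, zero_mul, mul_zero,
      sub_self, sub_zero, zero_add, add_zero]
    abel
  have I4 : P * a * P = k := by
    simp only [ha, mul_add, add_mul, hPk, hkP, hPk', zero_mul, mul_smul_comm, mul_sub, mul_one, PP,
      sub_self, smul_zero, add_zero]
  refine ⟨a, b, sa, sb, fun T => ⟨?_, ?_⟩⟩
  · -- from `a, b` to the block data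
    have star_mem : ∀ T : A, (Commute T a ∧ Commute T b) → (Commute (star T) a ∧ Commute (star T) b) := by
      intro T hT
      refine ⟨?_, ?_⟩
      · have := hT.1.star_star; rwa [sa.star_eq] at this
      · have := hT.2.star_star; rwa [sb.star_eq] at this
    have step1 : ∀ T : A, (Commute T a ∧ Commute T b) → Commute T P := by
      intro T hT
      exact commute_of_gap PP hPk hkP hPk' hk'P (by rw [hμ]; linarith) hT.1
    have step3 : ∀ T : A, (Commute T a ∧ Commute T b) → Commute T e := by
      intro T hT
      have hTP := step1 T hT
      have hTP' : Commute T (1 - P) := (Commute.one_right T).sub_right hTP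
      have h4 : Commute T (Bop + (ν : ℂ) • e) := by
        rw [← I3]; exact (hTP'.mul_right hT.2).mul_right hTP'
      have hQ : Commute T (1 - e) := by
        apply commute_of_gap (Q := 1 - e) (u := Bop) (v := 0) (μ := ν)
        · simp only [mul_sub, sub_mul, one_mul, mul_one, ee]; abel
        · simp only [sub_mul, one_mul, eB, sub_zero]
        · simp only [mul_sub, mul_one, Be, sub_zero]
        · simp
        · simp
        · rw [hν]; linarith
        · simpa using h4
      have := (Commute.one_right T).sub_right hQ
      simpa using this
    have step4 : ∀ T : A, (Commute T a ∧ Commute T b) → Commute T α ∧ Commute T (β * E) := by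
      intro T hT
      have hTP := step1 T hT
      have hTP' : Commute T (1 - P) := (Commute.one_right T).sub_right hTP
      have hTe := step3 T hT
      have hTz : Commute T z := by
        rw [← I2]; exact (hTP.mul_right hT.2).mul_right hTP'
      have hze : z * e = β * E := by
        simp only [hz, add_mul, αe, zero_add, mul_assoc, Ee]; exact βEe.symm
      have h1 : Commute T (β * E) := by rw [← hze]; exact hTz.mul_right hTe
      have h2 : Commute T α := by
        have : α = z - β * E := by simp [hz]
        rw [this]; exact hTz.sub_right h1
      exact ⟨h2, h1⟩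
    have step6 : ∀ T : A, (Commute T a ∧ Commute T b) → Commute T S₀ ∧ Commute T β₀ := by
      intro T hT
      have hTs := star_mem T hT
      have hTP := step1 T hT
      have hTP' : Commute T (1 - P) := (Commute.one_right T).sub_right hTP
      have hTe := step3 T hT
      have hTα := (step4 T hT).1
      have hTαs : Commute T (star α) := commute_star_of (step4 _ hTs).1
      have hTsαs : Commute (star T) (star α) := by
        have := hTα.star_star; exact this
      have hTE' : Commute T E' := hE'.commute hTαs hTsαs
      have hTE : Commute T E := by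
        have : E = e + P := by simp [he]
        rw [this]; exact hTe.add_right hTP
      have h3 : Commute T (Aop + S₀) := by
        rw [← I1]; exact (hTP.mul_right hT.2).mul_right hTP
      have hS₀ : E' * (Aop + S₀) * E' = S₀ := by
        have h1 : E' * Aop * E' = 0 := by
          simp only [hAop', mul_add, add_mul, mul_assoc, αsE', mul_zero, zero_add]
          simp only [← mul_assoc, E'α, zero_mul]
        rw [mul_add, add_mul, h1, zero_add, E'S, SE']
      have hTS : Commute T S₀ := by
        rw [← hS₀]; exact (hTE'.mul_right h3).mul_right hTE'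
      have hTA : Commute T Aop := by
        have : Aop = (Aop + S₀) - S₀ := by abel
        rw [this]; exact h3.sub_right hTS
      have h4 : Commute T (Bop + (ν : ℂ) • e) := by
        rw [← I3]; exact (hTP'.mul_right hT.2).mul_right hTP'
      have hTB : Commute T Bop := by
        have : Bop = (Bop + (ν : ℂ) • e) - (ν : ℂ) • e := by abel
        rw [this]; exact h4.sub_right (hTe.smul_right _)
      have hTB' : Commute T (Y₂ - star Y₂) := by
        have : Y₂ - star Y₂ = (-Complex.I) • Bop := by
          rw [hBop, smul_smul]; simp
        rw [this]; exact hTB.smul_right _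
      -- the commutators
      set D : A := T * β₀ - β₀ * T with hD
      set D' : A := T * star β₀ - star β₀ * T with hD'
      have eq1 : D * star α + α * D' = 0 := by
        have h := hTA.eq
        have e1 : T * Aop - Aop * T = D * star α + α * D' := by
          simp only [hAop', hD, hD', mul_add, add_mul, sub_mul, mul_sub, mul_assoc]
          rw [← hTαs.eq]
          rw [← mul_assoc T α, hTα.eq]
          simp only [mul_assoc]
          abel
        rw [← e1, h, sub_self]
      have eq2 : star α * D - D' * α = 0 := by
        have h := hTB'.eq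
        have e1 : T * (Y₂ - star Y₂) - (Y₂ - star Y₂) * T = star α * D - D' * α := by
          simp only [hYY, hD, hD', mul_add, add_mul, sub_mul, mul_sub, mul_assoc]
          rw [← hTα.eq]
          rw [← mul_assoc T (star α), hTαs.eq]
          simp only [mul_assoc]
          abel
        rw [← e1, h, sub_self]
      have eq3 : α * star α * D + D * (star α * α) = 0 := by
        have h1 : α * (star α * D - D' * α) = 0 := by rw [eq2, mul_zero]
        have h2 : (D * star α + α * D') * α = 0 := by rw [eq1, zero_mul]
        have : α * star α * D + D * (star α * α)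
            = α * (star α * D - D' * α) + (D * star α + α * D') * α := by
          simp only [mul_sub, add_mul, mul_assoc]; abel
        rw [this, h1, h2, add_zero]
      have hDα : D * star α = 0 := lyapunov eq3
      have hDE : D * E = D := hE.mul_right_eq hDα
      have hDE0 : D * E = 0 := by
        simp only [hD, sub_mul, mul_assoc, β₀E, mul_zero, zero_sub]
        rw [hTE.eq, ← mul_assoc, β₀E, zero_mul, neg_zero]
      have hD0 : D = 0 := by rw [← hDE, hDE0]
      exact ⟨hTS, sub_eq_zero.mp hD0⟩
    intro hT
    have hTs := star_mem T hT
    have hTP := step1 T hT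
    have hTk : Commute T k := by
      rw [← I4]; exact (hTP.mul_right hT.1).mul_right hTP
    have hTk' : Commute T k' := by
      have : k' = a - k - (μ : ℂ) • (1 - P) := by simp only [ha]; abel
      rw [this]
      exact (hT.1.sub_right hTk).sub_right (((Commute.one_right T).sub_right hTP).smul_right _)
    have hβ : ∀ T : A, (Commute T a ∧ Commute T b) → Commute T β := by
      intro T hT
      rw [βsplit]
      exact (step6 T hT).2.add_right (step4 T hT).2
    exact ⟨hTP, hTk, hTk', (step4 T hT).1, commute_star_of (step4 _ hTs).1, hβ T hT,
      commute_star_of (hβ _ hTs), (step6 T hT).1⟩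
  · -- from the block data to `a, b`
    rintro ⟨hTP, hTk, hTk', hTα, hTαs, hTβ, hTβs, hTS⟩
    have hTsα : Commute (star T) α := by
      have := hTαs.star_star; simpa using this
    have hTE : Commute T E := hE.commute hTα hTsα
    have hTe : Commute T e := hTE.sub_right hTP
    have hTβ₀ : Commute T β₀ := hTβ.mul_right ((Commute.one_right T).sub_right hTE)
    have hTsβ₀ : Commute T (star β₀) := by
      have : star β₀ = (1 - E) * star β := by simp [hβ₀, star_mul, sE]
      rw [this]; exact ((Commute.one_right T).sub_right hTE).mul_right hTβs
    have hTz : Commute T z := hTα.add_right (hTβ.mul_right hTE)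
    have hTsz : Commute T (star z) := by
      have : star z = star α + E * star β := by simp [hz, star_mul, sE]
      rw [this]; exact hTαs.add_right (hTE.mul_right hTβs)
    have hTA : Commute T Aop := by
      rw [hAop']
      exact (hTβ₀.mul_right hTαs).add_right (hTα.mul_right hTsβ₀)
    have hTB : Commute T Bop := by
      rw [hBop']
      exact ((hTαs.mul_right hTβ₀).sub_right (hTsβ₀.mul_right hTα)).smul_right _
    refine ⟨?_, ?_⟩
    · exact (hTk.add_right hTk').add_right (((Commute.one_right T).sub_right hTP).smul_right _)
    · exact ((((hTA.add_right hTS).add_right hTz).add_right hTsz).add_right hTB).add_right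
        (hTe.smul_right _)

end Vale.Agent.Lib.P085
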